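import Vale.Agent.P137.Grad
import Vale.Agent.P137.Stab
import Vale.Agent.P137.Tr
import Vale.Agent.P137.Fin

open MeasureTheory Vale.Agent.P137
open scoped ENNReal

theorem Vale.Agent.Results.P137.Unc.result (d : ℕ) (hd : 2 ≤ d) :
    ∃ C : ℝ, ∀ (f : EuclideanSpace ℝ (Fin d) → ℝ)
      (G : EuclideanSpace ℝ (Fin d) → EuclideanSpace ℝ (Fin d)),
      Integrable f → Integrable G → WGrad f G →
      (∀ᵐ x, Mu f x < ∞) ∧ LocallyIntegrable (fun x => (Mu f x).toReal) ∧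
      ∃ H : EuclideanSpace ℝ (Fin d) → EuclideanSpace ℝ (Fin d),
        Integrable H ∧ WGrad (fun x => (Mu f x).toReal) H ∧ ∫ x, ‖H x‖ ≤ C * ∫ x, ‖G x‖ :=
  have hd1 : 1 ≤ d := by omega
  finStmt hd1 (trStmt d) (uStmt hd1) (gradStmt hd (stabStmt hd1) (uStmt hd1))
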