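import Vale.Agent.Results.P137.Cen
import Vale.Agent.Results.P137.Unc

open MeasureTheory Vale.Agent.P137
open scoped ENNReal

theorem Vale.Agent.Results.P137.Both.result (d : ℕ) (hd : 2 ≤ d) :
    ∃ C : ℝ, ∀ (f : EuclideanSpace ℝ (Fin d) → ℝ)
      (G : EuclideanSpace ℝ (Fin d) → EuclideanSpace ℝ (Fin d)),
      Integrable f → Integrable G → WGrad f G →
      ((∀ᵐ x, Mc f x < ∞) ∧ LocallyIntegrable (fun x => (Mc f x).toReal) ∧
        ∃ H : EuclideanSpace ℝ (Fin d) → EuclideanSpace ℝ (Fin d),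
          Integrable H ∧ WGrad (fun x => (Mc f x).toReal) H ∧ ∫ x, ‖H x‖ ≤ C * ∫ x, ‖G x‖) ∧
      ((∀ᵐ x, Mu f x < ∞) ∧ LocallyIntegrable (fun x => (Mu f x).toReal) ∧
        ∃ H : EuclideanSpace ℝ (Fin d) → EuclideanSpace ℝ (Fin d),
          Integrable H ∧ WGrad (fun x => (Mu f x).toReal) H ∧ ∫ x, ‖H x‖ ≤ C * ∫ x, ‖G x‖) := by
  obtain ⟨C1, h1⟩ := Vale.Agent.Results.P137.Cen.result d hd
  obtain ⟨C2, h2⟩ := Vale.Agent.Results.P137.Unc.result d hd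
  refine ⟨max C1 C2, fun f G a b c => ?_⟩
  have h0 : 0 ≤ ∫ x, ‖G x‖ := integral_nonneg fun _ => norm_nonneg _
  obtain ⟨p1, p2, H1, p3, p4, p5⟩ := h1 f G a b c
  obtain ⟨q1, q2, H2, q3, q4, q5⟩ := h2 f G a b c
  exact ⟨⟨p1, p2, H1, p3, p4, p5.trans (mul_le_mul_of_nonneg_right (le_max_left _ _) h0)⟩,
    q1, q2, H2, q3, q4, q5.trans (mul_le_mul_of_nonneg_right (le_max_right _ _) h0)⟩
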