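import Vale.Agent.P137.Disc
import Vale.Agent.P137.PF
import Vale.Agent.P137.Osc
import Vale.Agent.P137.Lev
import Vale.Agent.P137.Geo
import Vale.Agent.P137.CS
import Vale.Agent.P137.Ab
import Vale.Agent.P137.Ref
import Vale.Agent.P137.Ord
import Vale.Agent.P137.VM
import Vale.Agent.P137.Neg
import Vale.Agent.P137.OneD
import Vale.Agent.P137.Hit
import Vale.Agent.P137.Exc
import Vale.Agent.P137.Cell
import Vale.Agent.P137.Glob
import Vale.Agent.P137.Mol
import Vale.Agent.P137.Weak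
import Vale.Agent.P137.Conv
import Vale.Agent.P137.FinC

open MeasureTheory Vale.Agent.P137
open scoped ENNReal

theorem Vale.Agent.Results.P137.Cen.result (d : ℕ) (hd : 2 ≤ d) :
    ∃ C : ℝ, ∀ (f : EuclideanSpace ℝ (Fin d) → ℝ)
      (G : EuclideanSpace ℝ (Fin d) → EuclideanSpace ℝ (Fin d)),
      Integrable f → Integrable G → WGrad f G →
      (∀ᵐ x, Mc f x < ∞) ∧ LocallyIntegrable (fun x => (Mc f x).toReal) ∧
      ∃ H : EuclideanSpace ℝ (Fin d) → EuclideanSpace ℝ (Fin d),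
        Integrable H ∧ WGrad (fun x => (Mc f x).toReal) H ∧ ∫ x, ‖H x‖ ≤ C * ∫ x, ‖G x‖ :=
  have hd1 : 1 ≤ d := by omega
  have hP := pfStmt hd
  have hG := geoStmt hd
  have hD := discStmt (levStmt hP (oscStmt hd)) (kStmt hd) (abStmt hd hG) (refStmt hd) (ordStmt hd)
    (parStmt d) (csStmt hG) (pinIntStmt hG)
  have hC := cellStmt hd (negStmt hD (vStmt d) (derStmt hd)) (coneStmt hd) (excStmt hP) (vStmt d)
    od1Stmt
  finCStmt hd (locStmt d) (molStmt hd) (mStmt hd)
    (globStmt hd hC (mStmt hd) (vStmt d) (hitStmt d od2Stmt)) (weakStmt d) (convStmt hd (mStmt hd))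
    (finStmt hd1 (trStmt d) (uStmt hd1) (gradStmt hd (stabStmt hd1) (uStmt hd1)))
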